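import Mathlib

/-!
# Nonnegative idempotent matrices over the `l1` algebra of a group

Maximum principle argument: the diagonal entries of a nonnegative idempotent matrix over `l1(G)`
are supported on finitely many elements of finite order.
-/

namespace Vale.Agent.Lib.P184b

open Finset

variable {G : Type*} [Group G]

/-- a nonnegative summable function attains its maximum -/
theorem exists_max_of_summable (f : G → ℝ) (h0 : ∀ g, 0 ≤ f g) (hs : Summable f) :
    ∃ g0, ∀ g, f g ≤ f g0 := by
  by_cases hz : ∀ g, f g = 0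
  · exact ⟨1, fun g => by rw [hz g, hz 1]⟩
  · rw [not_forall] at hz
    obtain ⟨g1, hg1⟩ := hz
    have hpos : 0 < f g1 := lt_of_le_of_ne (h0 g1) (Ne.symm hg1)
    have hfin : {g | f g1 ≤ f g}.Finite := by
      have ht := hs.tendsto_cofinite_zero
      have := ht.eventually (gt_mem_nhds hpos)
      rw [Filter.eventually_cofinite] at this
      refine this.subset ?_
      intro g hg
      have hg' : f g1 ≤ f g := hg
      show ¬ f g < f g1
      exact not_lt.2 hg'
    have hne : {g | f g1 ≤ f g}.Nonempty := ⟨g1, show f g1 ≤ f g1 from le_refl _⟩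
    obtain ⟨g0, hg0, hmax⟩ := Set.exists_max_image _ f hfin hne
    refine ⟨g0, fun g => ?_⟩
    by_cases hg : f g1 ≤ f g
    · exact hmax g hg
    · exact le_trans (not_le.1 hg).le hg0

omit [Group G] in
/-- level sets of a summable function at a positive level are finite -/
theorem finite_level (f : G → ℝ) (hs : Summable f) (c : ℝ) (hc : 0 < c) :
    {g | f g = c}.Finite := by
  have ht := hs.tendsto_cofinite_zero
  have := ht.eventually (gt_mem_nhds hc)
  rw [Filter.eventually_cofinite] at this
  refine this.subset ?_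
  intro g hg
  have hg' : f g = c := hg
  show ¬ f g < c
  exact not_lt.2 hg'.ge

/-- summability of the convolution integrand -/
theorem summable_conv_term (a b : G → ℝ) (ha0 : ∀ g, 0 ≤ a g) (hb0 : ∀ g, 0 ≤ b g)
    (ha : Summable a) (hb : Summable b) (g : G) :
    Summable (fun h => a h * b (h⁻¹ * g)) := by
  obtain ⟨g0, hg0⟩ := exists_max_of_summable b hb0 hb
  refine Summable.of_nonneg_of_le (fun h => mul_nonneg (ha0 h) (hb0 _))
    (fun h => mul_le_mul_of_nonneg_left (hg0 _) (ha0 h)) (ha.mul_right _)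

/-- total mass of a convolution -/
theorem conv_mass (a b : G → ℝ) (ha0 : ∀ g, 0 ≤ a g) (hb0 : ∀ g, 0 ≤ b g)
    (ha : Summable a) (hb : Summable b) :
    Summable (fun g => ∑' h, a h * b (h⁻¹ * g)) ∧
      ∑' g, ∑' h, a h * b (h⁻¹ * g) = (∑' h, a h) * ∑' g, b g := by
  -- the family on the product
  have hprod : Summable (fun z : G × G => a z.1 * b z.2) :=
    ha.mul_of_nonneg hb ha0 hb0
  let E : G × G ≃ G × G :=
    { toFun := fun z => (z.1, z.1⁻¹ * z.2)
      invFun := fun z => (z.1, z.1 * z.2)
      left_inv := fun z => by simp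
      right_inv := fun z => by simp }
  have hprod2 : Summable (fun z : G × G => a z.1 * b (z.1⁻¹ * z.2)) :=
    (E.summable_iff (f := fun z : G × G => a z.1 * b z.2)).2 hprod
  have hswap : Summable (fun z : G × G => a z.2 * b (z.2⁻¹ * z.1)) :=
    ((Equiv.prodComm G G).summable_iff (f := fun z : G × G => a z.1 * b (z.1⁻¹ * z.2))).2 hprod2
  constructor
  · exact hswap.prod
  · have h1 : ∑' g, ∑' h, a h * b (h⁻¹ * g) = ∑' z : G × G, a z.2 * b (z.2⁻¹ * z.1) :=
      (hswap.tsum_prod).symm
    have h2 : ∑' z : G × G, a z.2 * b (z.2⁻¹ * z.1) = ∑' z : G × G, a z.1 * b (z.1⁻¹ * z.2) :=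
      (Equiv.prodComm G G).tsum_eq (fun z : G × G => a z.1 * b (z.1⁻¹ * z.2))
    have h3 : ∑' z : G × G, a z.1 * b (z.1⁻¹ * z.2) = ∑' z : G × G, a z.1 * b z.2 :=
      E.tsum_eq (fun z : G × G => a z.1 * b z.2)
    have h4 : ∑' z : G × G, a z.1 * b z.2 = (∑' h, a h) * ∑' g, b g :=
      (ha.tsum_mul_tsum hb hprod).symm
    rw [h1, h2, h3, h4]

/-- Main lemma: the diagonal entries of a nonnegative idempotent matrix over `l1(G)` are supported
on finitely many elements of finite order. -/
theorem core {q : ℕ} (b : Fin q → Fin q → G → ℝ) (h0 : ∀ i j g, 0 ≤ b i j g)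
    (hs : ∀ i j, Summable (b i j))
    (hid : ∀ i k g, ∑ j, ∑' h, b i j h * b j k (h⁻¹ * g) = b i k g) (i : Fin q) :
    {g | b i i g ≠ 0}.Finite ∧ ∀ g, b i i g ≠ 0 → IsOfFinOrder g := by
  classical
  set eps : Fin q → Fin q → ℝ := fun j l => ∑' h, b j l h with heps
  have eps0 : ∀ j l, 0 ≤ eps j l := fun j l => tsum_nonneg (h0 j l)
  have epsid : ∀ j k, ∑ l, eps j l * eps l k = eps j k := by
    intro j k
    have h1 : ∀ l, Summable (fun g => ∑' h, b j l h * b l k (h⁻¹ * g)) :=
      fun l => (conv_mass _ _ (h0 j l) (h0 l k) (hs j l) (hs l k)).1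
    have h2 : ∑' g, ∑ l, ∑' h, b j l h * b l k (h⁻¹ * g)
        = ∑ l, ∑' g, ∑' h, b j l h * b l k (h⁻¹ * g) :=
      Summable.tsum_finsetSum (fun l _ => h1 l)
    calc ∑ l, eps j l * eps l k = ∑ l, ∑' g, ∑' h, b j l h * b l k (h⁻¹ * g) := by
          refine Finset.sum_congr rfl (fun l _ => ?_)
          exact ((conv_mass _ _ (h0 j l) (h0 l k) (hs j l) (hs l k)).2).symm
      _ = ∑' g, ∑ l, ∑' h, b j l h * b l k (h⁻¹ * g) := h2.symm
      _ = ∑' g, b j k g := tsum_congr (fun g => hid j k g)
      _ = eps j k := rfl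
  have hmax : ∀ l, ∃ g0, ∀ g, b l i g ≤ b l i g0 :=
    fun l => exists_max_of_summable _ (h0 l i) (hs l i)
  choose gm hgm using hmax
  set M : Fin q → ℝ := fun l => b l i (gm l) with hM
  have hterm : ∀ j l g, ∑' h, b j l h * b l i (h⁻¹ * g) ≤ eps j l * M l := by
    intro j l g
    have h3 : ∑' h, b j l h * b l i (h⁻¹ * g) ≤ ∑' h, b j l h * M l :=
      Summable.tsum_le_tsum (fun h => mul_le_mul_of_nonneg_left (hgm l _) (h0 j l h))
        (summable_conv_term _ _ (h0 j l) (h0 l i) (hs j l) (hs l i) g) ((hs j l).mul_right _)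
    rwa [tsum_mul_right] at h3
  have hle : ∀ j, M j ≤ ∑ l, eps j l * M l := by
    intro j
    calc M j = ∑ l, ∑' h, b j l h * b l i (h⁻¹ * gm j) := (hid j i (gm j)).symm
      _ ≤ _ := Finset.sum_le_sum (fun l _ => hterm j l _)
  have hsum0 : ∑ l, eps i l * ((∑ m, eps l m * M m) - M l) = 0 := by
    have h4 : ∑ l, eps i l * (∑ m, eps l m * M m) = ∑ m, eps i m * M m := by
      calc ∑ l, eps i l * (∑ m, eps l m * M m) = ∑ l, ∑ m, eps i l * eps l m * M m := by
            simp only [Finset.mul_sum, mul_assoc]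
        _ = ∑ m, ∑ l, eps i l * eps l m * M m := Finset.sum_comm
        _ = ∑ m, (∑ l, eps i l * eps l m) * M m := by simp only [Finset.sum_mul]
        _ = ∑ m, eps i m * M m := by simp only [epsid]
    simp only [mul_sub, Finset.sum_sub_distrib, h4, sub_self]
  have hzero : eps i i * ((∑ m, eps i m * M m) - M i) = 0 :=
    (Finset.sum_eq_zero_iff_of_nonneg
      (fun l _ => mul_nonneg (eps0 i l) (sub_nonneg.2 (hle l)))).1 hsum0 i (Finset.mem_univ i)
  by_cases hz : ∀ g, b i i g = 0
  · constructor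
    · have : {g | b i i g ≠ 0} = ∅ := by
        ext g
        constructor
        · intro hg
          exact absurd (hz g) hg
        · intro hg
          exact absurd hg (Set.notMem_empty g)
      rw [this]
      exact Set.finite_empty
    · intro g hg
      exact absurd (hz g) hg
  rw [not_forall] at hz
  obtain ⟨g1, hg1⟩ := hz
  have hg1pos : 0 < b i i g1 := lt_of_le_of_ne (h0 i i g1) (Ne.symm hg1)
  have hepspos : 0 < eps i i :=
    lt_of_lt_of_le hg1pos ((hs i i).le_tsum g1 (fun g _ => h0 i i g))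
  have hMpos : 0 < M i := lt_of_lt_of_le hg1pos (hgm i g1)
  have hMeq : ∑ m, eps i m * M m = M i := by
    rcases mul_eq_zero.1 hzero with h5 | h5
    · exact absurd h5 hepspos.ne'
    · linarith
  -- the set of maximisers is stable
  have hstab : ∀ g, b i i g = M i → ∀ h, b i i h ≠ 0 → b i i (h⁻¹ * g) = M i := by
    intro g hg h hh
    have h6 : ∑ l, (eps i l * M l - ∑' h, b i l h * b l i (h⁻¹ * g)) = 0 := by
      rw [Finset.sum_sub_distrib, hMeq, hid i i g, hg, sub_self]
    have h7 : eps i i * M i - ∑' h, b i i h * b i i (h⁻¹ * g) = 0 :=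
      (Finset.sum_eq_zero_iff_of_nonneg
        (fun l _ => sub_nonneg.2 (hterm i l g))).1 h6 i (Finset.mem_univ i)
    have hsA : Summable (fun h => b i i h * M i) := (hs i i).mul_right _
    have hsB : Summable (fun h => b i i h * b i i (h⁻¹ * g)) :=
      summable_conv_term _ _ (h0 i i) (h0 i i) (hs i i) (hs i i) g
    have h8 : HasSum (fun h => b i i h * M i - b i i h * b i i (h⁻¹ * g)) 0 := by
      have h9 := hsA.hasSum.sub hsB.hasSum
      rw [tsum_mul_right] at h9
      rw [h7] at h9
      exact h9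
    have h10 := (hasSum_zero_iff_of_nonneg (fun h => sub_nonneg.2
      (mul_le_mul_of_nonneg_left (hgm i _) (h0 i i h)))).1 h8
    have h11 : b i i h * M i - b i i h * b i i (h⁻¹ * g) = 0 := congrFun h10 h
    have h12 : b i i h * (M i - b i i (h⁻¹ * g)) = 0 := by rw [mul_sub]; exact h11
    rcases mul_eq_zero.1 h12 with h13 | h13
    · exact absurd h13 hh
    · linarith
  have hfinMax : {g | b i i g = M i}.Finite := finite_level _ (hs i i) _ hMpos
  constructor
  · refine (hfinMax.image (fun m => gm i * m⁻¹)).subset ?_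
    intro h hh
    refine ⟨h⁻¹ * gm i, hstab (gm i) rfl h hh, ?_⟩
    simp
  · intro h hh
    have hit : ∀ n : ℕ, b i i ((h⁻¹) ^ n * gm i) = M i := by
      intro n
      induction n with
      | zero => simp [hM]
      | succ n ih =>
        have := hstab _ ih h hh
        rw [← mul_assoc, ← pow_succ'] at this
        exact this
    by_contra hnot
    have hnot' : ¬ IsOfFinOrder h⁻¹ := fun hc => hnot (by simpa using hc.inv)
    have hinj : Function.Injective (fun n : ℕ => (h⁻¹) ^ n) :=
      injective_pow_iff_not_isOfFinOrder.2 hnot'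
    have hinj2 : Function.Injective (fun n : ℕ => (h⁻¹) ^ n * gm i) := by
      intro n m hnm
      exact hinj (mul_right_cancel hnm)
    have hinf : (Set.range (fun n : ℕ => (h⁻¹) ^ n * gm i)).Infinite :=
      Set.infinite_range_of_injective hinj2
    apply hinf
    refine hfinMax.subset ?_
    rintro _ ⟨n, rfl⟩
    exact hit n

end Vale.Agent.Lib.P184b
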