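import Vale.Agent.Lib.P184b.Core

/-!
# From contractive idempotents to nonnegative idempotents
-/

namespace Vale.Agent.Lib.P184b

open Finset

variable {G : Type*} [Group G]

/-- A nonnegative matrix over `l1(G)` with `b ≤ b * b` entrywise which is contractive for a weighted
sum of the `l1` norms is idempotent. -/
theorem idem_of_subidem {q : ℕ} (b : Fin q → Fin q → G → ℝ) (h0 : ∀ i j g, 0 ≤ b i j g)
    (hs : ∀ i j, Summable (b i j))
    (hsub : ∀ i k g, b i k g ≤ ∑ j, ∑' h, b i j h * b j k (h⁻¹ * g))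
    (v : Fin q → ℝ) (hv : ∀ i, 0 < v i)
    (hcol : ∀ j, ∑ i, v i * ∑' g, b i j g ≤ v j) :
    ∀ i k g, ∑ j, ∑' h, b i j h * b j k (h⁻¹ * g) = b i k g := by
  classical
  intro i k g
  set n : Fin q → Fin q → ℝ := fun j l => ∑' h, b j l h with hn
  have n0 : ∀ j l, 0 ≤ n j l := fun j l => tsum_nonneg (h0 j l)
  have hcs : ∀ i j, Summable (fun g => ∑' h, b i j h * b j k (h⁻¹ * g)) :=
    fun i j => (conv_mass _ _ (h0 i j) (h0 j k) (hs i j) (hs j k)).1
  have hcs2 : ∀ i, Summable (fun g => ∑ j, ∑' h, b i j h * b j k (h⁻¹ * g)) :=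
    fun i => summable_sum (fun j _ => hcs i j)
  have hmass : ∀ i, ∑' g, ∑ j, ∑' h, b i j h * b j k (h⁻¹ * g) = ∑ j, n i j * n j k := by
    intro i
    rw [Summable.tsum_finsetSum (fun j _ => hcs i j)]
    refine Finset.sum_congr rfl (fun j _ => ?_)
    exact (conv_mass _ _ (h0 i j) (h0 j k) (hs i j) (hs j k)).2
  -- the defect
  set B : Fin q → G → ℝ := fun i g => (∑ j, ∑' h, b i j h * b j k (h⁻¹ * g)) - b i k g with hB
  have B0 : ∀ i g, 0 ≤ B i g := fun i g => sub_nonneg.2 (hsub i k g)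
  have Bs : ∀ i, HasSum (B i) ((∑ j, n i j * n j k) - n i k) := by
    intro i
    have h1 := (hcs2 i).hasSum.sub (hs i k).hasSum
    rw [hmass i] at h1
    exact h1
  have hS0 : ∀ i, 0 ≤ (∑ j, n i j * n j k) - n i k := fun i => (Bs i).nonneg (B0 i)
  have htot : ∑ i, v i * ((∑ j, n i j * n j k) - n i k) ≤ 0 := by
    have h1 : ∑ i, v i * ((∑ j, n i j * n j k) - n i k)
        = (∑ j, ∑ i, v i * n i j * n j k) - ∑ i, v i * n i k := by
      simp only [mul_sub, Finset.sum_sub_distrib, Finset.mul_sum]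
      rw [Finset.sum_comm]
      simp only [mul_assoc]
    rw [h1]
    have h2 : ∑ j, ∑ i, v i * n i j * n j k ≤ ∑ j, v j * n j k := by
      refine Finset.sum_le_sum (fun j _ => ?_)
      rw [← Finset.sum_mul]
      exact mul_le_mul_of_nonneg_right (hcol j) (n0 j k)
    linarith
  have hall : ∑ i, v i * ((∑ j, n i j * n j k) - n i k) = 0 :=
    le_antisymm htot (Finset.sum_nonneg (fun i _ => mul_nonneg (hv i).le (hS0 i)))
  have hi' : v i * ((∑ j, n i j * n j k) - n i k) = 0 :=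
    (Finset.sum_eq_zero_iff_of_nonneg (fun i _ => mul_nonneg (hv i).le (hS0 i))).1 hall i
      (Finset.mem_univ i)
  have hi : (∑ j, n i j * n j k) - n i k = 0 := by
    rcases mul_eq_zero.1 hi' with h | h
    · exact absurd h (hv i).ne'
    · exact h
  have h3 := Bs i
  rw [hi] at h3
  have h4 := (hasSum_zero_iff_of_nonneg (B0 i)).1 h3
  have h5 : B i g = 0 := congrFun h4 g
  exact sub_eq_zero.1 h5

/-- Row version of `idem_of_subidem`. -/
theorem idem_of_subidem_row {q : ℕ} (b : Fin q → Fin q → G → ℝ) (h0 : ∀ i j g, 0 ≤ b i j g)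
    (hs : ∀ i j, Summable (b i j))
    (hsub : ∀ i k g, b i k g ≤ ∑ j, ∑' h, b i j h * b j k (h⁻¹ * g))
    (v : Fin q → ℝ) (hv : ∀ i, 0 < v i)
    (hrow : ∀ i, ∑ j, (∑' g, b i j g) * v j ≤ v i) :
    ∀ i k g, ∑ j, ∑' h, b i j h * b j k (h⁻¹ * g) = b i k g := by
  classical
  intro i k g
  set n : Fin q → Fin q → ℝ := fun j l => ∑' h, b j l h with hn
  have n0 : ∀ j l, 0 ≤ n j l := fun j l => tsum_nonneg (h0 j l)
  have hcs : ∀ k j, Summable (fun g => ∑' h, b i j h * b j k (h⁻¹ * g)) :=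
    fun k j => (conv_mass _ _ (h0 i j) (h0 j k) (hs i j) (hs j k)).1
  have hcs2 : ∀ k, Summable (fun g => ∑ j, ∑' h, b i j h * b j k (h⁻¹ * g)) :=
    fun k => summable_sum (fun j _ => hcs k j)
  have hmass : ∀ k, ∑' g, ∑ j, ∑' h, b i j h * b j k (h⁻¹ * g) = ∑ j, n i j * n j k := by
    intro k
    rw [Summable.tsum_finsetSum (fun j _ => hcs k j)]
    refine Finset.sum_congr rfl (fun j _ => ?_)
    exact (conv_mass _ _ (h0 i j) (h0 j k) (hs i j) (hs j k)).2
  set B : Fin q → G → ℝ := fun k g => (∑ j, ∑' h, b i j h * b j k (h⁻¹ * g)) - b i k g with hB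
  have B0 : ∀ k g, 0 ≤ B k g := fun k g => sub_nonneg.2 (hsub i k g)
  have Bs : ∀ k, HasSum (B k) ((∑ j, n i j * n j k) - n i k) := by
    intro k
    have h1 := (hcs2 k).hasSum.sub (hs i k).hasSum
    rw [hmass k] at h1
    exact h1
  have hS0 : ∀ k, 0 ≤ (∑ j, n i j * n j k) - n i k := fun k => (Bs k).nonneg (B0 k)
  have htot : ∑ k, ((∑ j, n i j * n j k) - n i k) * v k ≤ 0 := by
    have h1 : ∑ k, ((∑ j, n i j * n j k) - n i k) * v k
        = (∑ j, n i j * ∑ k, n j k * v k) - ∑ k, n i k * v k := by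
      simp only [sub_mul, Finset.sum_sub_distrib, Finset.sum_mul, Finset.mul_sum]
      rw [Finset.sum_comm]
      simp only [mul_assoc]
    rw [h1]
    have h2 : ∑ j, n i j * ∑ k, n j k * v k ≤ ∑ j, n i j * v j :=
      Finset.sum_le_sum (fun j _ => mul_le_mul_of_nonneg_left (hrow j) (n0 i j))
    linarith
  have hall : ∑ k, ((∑ j, n i j * n j k) - n i k) * v k = 0 :=
    le_antisymm htot (Finset.sum_nonneg (fun k _ => mul_nonneg (hS0 k) (hv k).le))
  have hi' : ((∑ j, n i j * n j k) - n i k) * v k = 0 :=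
    (Finset.sum_eq_zero_iff_of_nonneg (fun k _ => mul_nonneg (hS0 k) (hv k).le)).1 hall k
      (Finset.mem_univ k)
  have hi : (∑ j, n i j * n j k) - n i k = 0 := by
    rcases mul_eq_zero.1 hi' with h | h
    · exact h
    · exact absurd h (hv k).ne'
  have h3 := Bs k
  rw [hi] at h3
  have h4 := (hasSum_zero_iff_of_nonneg (B0 k)).1 h3
  have h5 : B k g = 0 := congrFun h4 g
  exact sub_eq_zero.1 h5

/-- The modulus of a complex idempotent matrix over `l1(G)` is sub-idempotent. -/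
theorem modulus_subidem {q : ℕ} (e : Fin q → Fin q → G → ℂ)
    (hl1 : ∀ i j, Summable (fun g => ‖e i j g‖))
    (hidem : ∀ i k g, ∑ j, ∑' h, e i j h * e j k (h⁻¹ * g) = e i k g) :
    ∀ i k g, ‖e i k g‖ ≤ ∑ j, ∑' h, ‖e i j h‖ * ‖e j k (h⁻¹ * g)‖ := by
  intro i k g
  rw [← hidem i k g]
  refine le_trans (norm_sum_le _ _) (Finset.sum_le_sum (fun j _ => ?_))
  have hsum : Summable (fun h => ‖e i j h * e j k (h⁻¹ * g)‖) := by
    simp only [norm_mul]
    exact summable_conv_term (fun g => ‖e i j g‖) (fun g => ‖e j k g‖)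
      (fun _ => norm_nonneg _) (fun _ => norm_nonneg _) (hl1 i j) (hl1 j k) g
  refine le_trans (norm_tsum_le_tsum_norm hsum) (le_of_eq ?_)
  simp only [norm_mul]

/-- The modulus of a nonnegative idempotent matrix is idempotent. -/
theorem modulus_idem_of_nonneg {q : ℕ} (e : Fin q → Fin q → G → ℂ)
    (hidem : ∀ i k g, ∑ j, ∑' h, e i j h * e j k (h⁻¹ * g) = e i k g)
    (hpos : ∀ i j g, ∃ r : ℝ, 0 ≤ r ∧ e i j g = (r : ℂ)) :
    ∀ i k g, ∑ j, ∑' h, ‖e i j h‖ * ‖e j k (h⁻¹ * g)‖ = ‖e i k g‖ := by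
  have hcast : ∀ i j g, e i j g = ((‖e i j g‖ : ℝ) : ℂ) := by
    intro i j g
    obtain ⟨r, hr, h⟩ := hpos i j g
    rw [h, Complex.norm_real, Real.norm_of_nonneg hr]
  intro i k g
  apply Complex.ofReal_injective
  rw [← hcast i k g, ← hidem i k g, Complex.ofReal_sum]
  refine Finset.sum_congr rfl (fun j _ => ?_)
  rw [Complex.ofReal_tsum]
  refine tsum_congr (fun h => ?_)
  rw [Complex.ofReal_mul, ← hcast, ← hcast]

end Vale.Agent.Lib.P184b
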